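import Mathlib

/-!
# Row 211, package (F2) "KEY": the pure real inequality behind the fan cover

Constants of the plan (`notes/row211_plan.md`): `c = 1/1000`, `M = 4000000`, `r = c^2/800`.
`phi` is the interface function `φ(x,y) = c x y + (c²/4)(y² - x²) + (c²/2)(y⁴ - x⁴)`.
-/

namespace Crest.Agent.Helper45

/-- The interface function of the fan construction (with `c = 1/1000`). -/
noncomputable def phi (x y : ℝ) : ℝ :=
  (1/1000) * x * y + ((1/1000)^2/4) * (y^2 - x^2) + ((1/1000)^2/2) * (y^4 - x^4)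

theorem phi_antisymm (x y : ℝ) : phi y (-x) = - phi x y := by
  unfold phi; ring

/-- crude bound: `phi ≤ c + c²` on the unit square. -/
theorem phi_le (x y : ℝ) (hx : |x| ≤ 1) (hy : |y| ≤ 1) : phi x y ≤ 1/1000 + (1/1000)^2 := by
  obtain ⟨hx1, hx2⟩ := abs_le.mp hx
  obtain ⟨hy1, hy2⟩ := abs_le.mp hy
  have hxy : x * y ≤ 1 := by nlinarith
  have hyy : y^2 ≤ 1 := by nlinarith
  have hy4 : y^4 ≤ 1 := by nlinarith [sq_nonneg (y^2)]
  have hxx0 : 0 ≤ x^2 := sq_nonneg x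
  have hx40 : 0 ≤ x^4 := by positivity
  unfold phi
  nlinarith

theorem abs_mul_le_of {a b A B : ℝ} (ha : |a| ≤ A) (hb : |b| ≤ B) : a * b ≤ A * B := by
  have hA : 0 ≤ A := le_trans (abs_nonneg _) ha
  calc a * b ≤ |a * b| := le_abs_self _
    _ = |a| * |b| := abs_mul a b
    _ ≤ A * B := mul_le_mul ha hb (abs_nonneg _) hA

theorem neg_le_mul_of {a b A B : ℝ} (ha : |a| ≤ A) (hb : |b| ≤ B) : -(A * B) ≤ a * b := by
  have hA : 0 ≤ A := le_trans (abs_nonneg _) ha
  have : |a * b| ≤ A * B := by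
    rw [abs_mul]; exact mul_le_mul ha hb (abs_nonneg _) hA
  linarith [neg_abs_le (a * b)]

/-- the main case of (F2), in the auxiliary variables `ρ` and `Y`. -/
theorem fan_key_aux (s x y t ρ Y : ℝ) (hs : |s| ≤ 1) (hx : |x| ≤ 51/100)
    (hy : |y| ≤ 5011/10000)
    (hρ : ρ = t - x * ((1/1000) * s / 2)) (hY : Y = y - x * ((1/1000)/4 * (1 + s^2)))
    (he : 1/2 < ρ) (hY1 : Y ≤ (s + 1/4000000) * ρ) (hY2 : (s - 1/4000000) * ρ ≤ Y)
    (hφ : t ≤ 1/2 + phi x y) :
    ρ ≤ 1/2 + ((1/1000)^2/16) * (s^2 + s^4) + (1/1000)^2/800 := by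
  obtain ⟨hs1, hs2⟩ := abs_le.mp hs
  have hss : s^2 ≤ 1 := by nlinarith
  have hss0 : 0 ≤ s^2 := sq_nonneg s
  have hs4 : s^4 ≤ 1 := by nlinarith [sq_nonneg (s^2)]
  have hD : |Y - s * ρ| ≤ ρ / 4000000 := by
    rw [abs_le]; constructor <;> linarith
  -- the key identity
  have hid : (ρ - 1/2) * (1 - (1/1000) * (x * s))
      - ((1/1000) * (x * (Y - s * ρ))
        + (1/1000)^2 * (x^2 * s^2 / 4 - x^4 / 2 + y^2 / 4 + y^4 / 2))
      = t - 1/2 - phi x y := by
    rw [hρ, hY]; unfold phi; ring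
  have hxY : x * (Y - s * ρ) ≤ 51/100 * (ρ / 4000000) := abs_mul_le_of hx hD
  have hq : x^2 * s^2 / 4 - x^4 / 2 ≤ s^4 / 32 := by
    nlinarith [sq_nonneg (x^2 - s^2/4)]
  have hxs : x * s ≤ 51/100 * 1 := abs_mul_le_of hx hs
  have hlow : (ρ - 1/2) * (1 - (1/1000) * (51/100))
      ≤ (ρ - 1/2) * (1 - (1/1000) * (x * s)) := by
    apply mul_le_mul_of_nonneg_left _ (by linarith)
    linarith
  -- (K'): linear inequality in `ρ` up to the `y`-bracket
  have hK' : (ρ - 1/2) * (99949/100000)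
      ≤ (1/1000) * (51/100 * (ρ / 4000000))
        + (1/1000)^2 * (s^4 / 32 + y^2 / 4 + y^4 / 2) := by
    linarith
  -- crude bound on `e = ρ - 1/2`
  obtain ⟨hy1, hy2⟩ := abs_le.mp hy
  have hyy' : y^2 ≤ 2512/10000 := by nlinarith
  have hyy0 : 0 ≤ y^2 := sq_nonneg y
  have hy4' : y^4 ≤ 632/10000 := by nlinarith [sq_nonneg (y^2)]
  have he0 : ρ - 1/2 ≤ 2/10^7 := by
    linarith
  -- refined bound on `y - s/2`
  have hyid : y - s/2 = (1/1000)/4 * (x * (1 + s^2)) + (Y - s * ρ) + s * (ρ - 1/2) := by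
    rw [hY]; ring
  have h1s : |1 + s^2| ≤ 2 := by
    rw [abs_le]; constructor <;> linarith
  have hse' : |ρ - 1/2| ≤ 2/10^7 := by
    rw [abs_le]; constructor <;> linarith
  have ha1 := abs_mul_le_of hx h1s
  have ha2 := neg_le_mul_of hx h1s
  have hb1 := abs_mul_le_of hs hse'
  have hb2 := neg_le_mul_of hs hse'
  obtain ⟨hD2, hD1⟩ := abs_le.mp hD
  have hd : |y - s/2| ≤ 256/10^6 := by
    rw [hyid, abs_le]
    constructor <;> linarith
  -- the bracket
  have hA : |y + s/2| ≤ 10011/10000 := by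
    rw [abs_le]; constructor <;> linarith
  have hB : |1/4 + (y^2 + s^2/4)/2| ≤ 5006/10000 := by
    rw [abs_le]; constructor <;> linarith
  have hbr : y^2 / 4 + y^4 / 2 - s^2/16 - s^4/32
      = (y - s/2) * ((y + s/2) * (1/4 + (y^2 + s^2/4)/2)) := by ring
  have hAB : |(y + s/2) * (1/4 + (y^2 + s^2/4)/2)| ≤ 10011/10000 * (5006/10000) := by
    rw [abs_mul]
    exact mul_le_mul hA hB (abs_nonneg _) (by norm_num)
  have hbr' : (y - s/2) * ((y + s/2) * (1/4 + (y^2 + s^2/4)/2))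
      ≤ 256/10^6 * (10011/10000 * (5006/10000)) := abs_mul_le_of hd hAB
  linarith

set_option linter.unusedVariables false in
/-- (F2) KEY inequality of the fan cover (the hypotheses `h2`, `hτm`, `hτp` are not needed by the
proof; they are kept so that the statement is the one of the plan). -/
theorem fan_key (s τm τp x y t : ℝ) (hs : |s| ≤ 1) (h1 : s - 1/4000000 ≤ τm) (h2 : τm ≤ τp)
    (h3 : τp ≤ s + 1/4000000) (hτm : |τm| ≤ 1) (hτp : |τp| ≤ 1) (ht : 0 ≤ t)
    (hx : |x| ≤ 1 - t) (hy : |y| ≤ t) (hφ : t ≤ 1/2 + phi x y)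
    (hlo : τm * (t - x * ((1/1000) * s / 2)) ≤ y - x * ((1/1000)/4 * (1 + s^2)))
    (hhi : y - x * ((1/1000)/4 * (1 + s^2)) ≤ τp * (t - x * ((1/1000) * s / 2))) :
    t - x * ((1/1000) * s / 2) ≤ 1/2 + ((1/1000)^2/16) * (s^2 + s^4) + (1/1000)^2/800 := by
  have ht1 : t ≤ 1 := by linarith [abs_nonneg x]
  have hx' : |x| ≤ 1 := by linarith
  have hy' : |y| ≤ 1 := by linarith
  have hφ' := phi_le x y hx' hy'
  have htT : t ≤ 5011/10000 := by norm_num at hφ' ⊢; linarith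
  have hG : 0 ≤ ((1/1000 : ℝ)^2/16) * (s^2 + s^4) := by positivity
  have hxs1 : x * s ≤ 1 * 1 := abs_mul_le_of hx' hs
  have hxs2 : -(1 * 1) ≤ x * s := neg_le_mul_of hx' hs
  rcases le_or_gt t (49/100) with hcase | hcase
  · -- small `t`
    linarith
  · -- `t` close to `1/2`
    have hx51 : |x| ≤ 51/100 := by linarith
    have hxs3 : x * s ≤ 51/100 * 1 := abs_mul_le_of hx51 hs
    have hρpos : 0 < t - x * ((1/1000) * s / 2) := by linarith
    rcases le_or_gt (t - x * ((1/1000) * s / 2)) (1/2) with he | he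
    · linarith
    · exact fan_key_aux s x y t _ _ hs hx51 (by linarith) rfl rfl he
        (le_trans hhi (mul_le_mul_of_nonneg_right h3 hρpos.le))
        (le_trans (mul_le_mul_of_nonneg_right h1 hρpos.le) hlo) hφ

end Crest.Agent.Helper45
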